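import Crest.Agent.Lib.RatPrim.Basic

/-! `fun_prop` support for `Primrec` (natural and rational arithmetic, bounded sums, products,
conditionals, list lookup, primitive recursion `natRec`).

Usage: in the file that calls `fun_prop` put `attribute [local irreducible] Primrec` (otherwise
failed unifications unfold `Primrec` and time out). Use Boolean tests (`Nat.ble`, `Nat.beq`,
`qle`, `&&`, `||`, `!`, `cond`). For your own `def foo a b`, prove
`@[fun_prop] theorem foo_pr (ha : Primrec a) (hb : Primrec b) : Primrec fun x => foo (a x) (b x)`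
by `unfold foo; fun_prop`. -/

set_option autoImplicit false

namespace Crest.Agent.RatPrim

open Finset

attribute [fun_prop] Primrec

variable {α β γ : Type*} [Primcodable α] [Primcodable β] [Primcodable γ]

@[fun_prop] theorem fp_id : Primrec fun x : α => x := Primrec.id
@[fun_prop] theorem fp_const (b : β) : Primrec fun _ : α => b := Primrec.const b
@[fun_prop] theorem fp_comp {f : β → γ} {g : α → β} (hf : Primrec f) (hg : Primrec g) :
    Primrec fun x => f (g x) := hf.comp hg
@[fun_prop] theorem fp_fst {f : α → β × γ} (hf : Primrec f) : Primrec fun x => (f x).1 :=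
  Primrec.fst.comp hf
@[fun_prop] theorem fp_snd {f : α → β × γ} (hf : Primrec f) : Primrec fun x => (f x).2 :=
  Primrec.snd.comp hf
@[fun_prop] theorem fp_pair {f : α → β} {g : α → γ} (hf : Primrec f) (hg : Primrec g) :
    Primrec fun x => (f x, g x) := hf.pair hg

@[fun_prop] theorem fp_nadd {f g : α → ℕ} (hf : Primrec f) (hg : Primrec g) :
    Primrec fun x => f x + g x := Primrec.nat_add.comp hf hg
@[fun_prop] theorem fp_nsub {f g : α → ℕ} (hf : Primrec f) (hg : Primrec g) :
    Primrec fun x => f x - g x := Primrec.nat_sub.comp hf hg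
@[fun_prop] theorem fp_nmul {f g : α → ℕ} (hf : Primrec f) (hg : Primrec g) :
    Primrec fun x => f x * g x := Primrec.nat_mul.comp hf hg
@[fun_prop] theorem fp_ndiv {f g : α → ℕ} (hf : Primrec f) (hg : Primrec g) :
    Primrec fun x => f x / g x := Primrec.nat_div.comp hf hg
@[fun_prop] theorem fp_nmod {f g : α → ℕ} (hf : Primrec f) (hg : Primrec g) :
    Primrec fun x => f x % g x := Primrec.nat_mod.comp hf hg
@[fun_prop] theorem fp_npow {f g : α → ℕ} (hf : Primrec f) (hg : Primrec g) :
    Primrec fun x => f x ^ g x := nat_pow hf hg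
@[fun_prop] theorem fp_nmin {f g : α → ℕ} (hf : Primrec f) (hg : Primrec g) :
    Primrec fun x => min (f x) (g x) := Primrec.nat_min.comp hf hg
@[fun_prop] theorem fp_nmax {f g : α → ℕ} (hf : Primrec f) (hg : Primrec g) :
    Primrec fun x => max (f x) (g x) := Primrec.nat_max.comp hf hg
@[fun_prop] theorem fp_fact {f : α → ℕ} (hf : Primrec f) : Primrec fun x => (f x).factorial :=
  nat_factorial.comp hf
@[fun_prop] theorem fp_natpair {f g : α → ℕ} (hf : Primrec f) (hg : Primrec g) :
    Primrec fun x => Nat.pair (f x) (g x) := Primrec₂.natPair.comp hf hg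
@[fun_prop] theorem fp_unpair {f : α → ℕ} (hf : Primrec f) : Primrec fun x => (f x).unpair :=
  Primrec.unpair.comp hf
@[fun_prop] theorem fp_nsum {f : α → ℕ → ℕ} {g : α → ℕ} (hf : Primrec fun p : α × ℕ => f p.1 p.2)
    (hg : Primrec g) : Primrec fun x => ∑ i ∈ range (g x), f x i := nat_sum_range hf hg
@[fun_prop] theorem fp_nprod {f : α → ℕ → ℕ} {g : α → ℕ}
    (hf : Primrec fun p : α × ℕ => f p.1 p.2) (hg : Primrec g) :
    Primrec fun x => ∏ i ∈ range (g x), f x i := by
  have := Primrec.nat_rec' hg (Primrec.const (1 : ℕ))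
    (h := fun x p => p.2 * f x p.1)
    (Primrec.nat_mul.comp (Primrec.snd.comp Primrec.snd)
      (hf.comp (Primrec.fst.pair (Primrec.fst.comp Primrec.snd))))
  refine this.of_eq fun x => ?_
  induction g x with
  | zero => simp
  | succ n ih => rw [prod_range_succ, ← ih]

@[fun_prop] theorem fp_cast {f : α → ℕ} (hf : Primrec f) : Primrec fun x => (f x : ℚ) :=
  natCast hf
@[fun_prop] theorem fp_qadd {f g : α → ℚ} (hf : Primrec f) (hg : Primrec g) :
    Primrec fun x => f x + g x := add hf hg
@[fun_prop] theorem fp_qsub {f g : α → ℚ} (hf : Primrec f) (hg : Primrec g) :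
    Primrec fun x => f x - g x := sub hf hg
@[fun_prop] theorem fp_qmul {f g : α → ℚ} (hf : Primrec f) (hg : Primrec g) :
    Primrec fun x => f x * g x := mul hf hg
@[fun_prop] theorem fp_qdiv {f g : α → ℚ} (hf : Primrec f) (hg : Primrec g) :
    Primrec fun x => f x / g x := div hf hg
@[fun_prop] theorem fp_qneg {f : α → ℚ} (hf : Primrec f) : Primrec fun x => -f x := neg hf
@[fun_prop] theorem fp_qinv {f : α → ℚ} (hf : Primrec f) : Primrec fun x => (f x)⁻¹ := inv hf
@[fun_prop] theorem fp_qpow {f : α → ℚ} {g : α → ℕ} (hf : Primrec f) (hg : Primrec g) :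
    Primrec fun x => f x ^ g x := pow hf hg
@[fun_prop] theorem fp_qsum {f : α → ℕ → ℚ} {g : α → ℕ} (hf : Primrec fun p : α × ℕ => f p.1 p.2)
    (hg : Primrec g) : Primrec fun x => ∑ i ∈ range (g x), f x i := sum_range hf hg
@[fun_prop] theorem fp_qprod {f : α → ℕ → ℚ} {g : α → ℕ}
    (hf : Primrec fun p : α × ℕ => f p.1 p.2) (hg : Primrec g) :
    Primrec fun x => ∏ i ∈ range (g x), f x i := by
  have := Primrec.nat_rec' hg (Primrec.const (1 : ℚ))
    (h := fun x p => p.2 * f x p.1)
    (mul (Primrec.snd.comp Primrec.snd)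
      (hf.comp (Primrec.fst.pair (Primrec.fst.comp Primrec.snd))))
  refine this.of_eq fun x => ?_
  induction g x with
  | zero => simp
  | succ n ih => rw [prod_range_succ, ← ih]

@[fun_prop] theorem fp_cond {c : α → Bool} {f g : α → β} (hc : Primrec c) (hf : Primrec f)
    (hg : Primrec g) : Primrec fun x => cond (c x) (f x) (g x) := Primrec.cond hc hf hg
@[fun_prop] theorem fp_and {f g : α → Bool} (hf : Primrec f) (hg : Primrec g) :
    Primrec fun x => (f x && g x) := Primrec.and.comp hf hg
@[fun_prop] theorem fp_or {f g : α → Bool} (hf : Primrec f) (hg : Primrec g) :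
    Primrec fun x => (f x || g x) := Primrec.or.comp hf hg
@[fun_prop] theorem fp_not {f : α → Bool} (hf : Primrec f) : Primrec fun x => (!f x) :=
  Primrec.not.comp hf
@[fun_prop] theorem fp_ble {f g : α → ℕ} (hf : Primrec f) (hg : Primrec g) :
    Primrec fun x => Nat.ble (f x) (g x) :=
  (Primrec.nat_le.comp hf hg).decide.of_eq fun x => by
    rw [Bool.eq_iff_iff]; simp
@[fun_prop] theorem fp_beq {f g : α → ℕ} (hf : Primrec f) (hg : Primrec g) :
    Primrec fun x => Nat.beq (f x) (g x) :=
  (Primrec.eq.comp hf hg).decide.of_eq fun x => by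
    rw [Bool.eq_iff_iff]; simp

/-- Boolean `≤` on the rationals. -/
def qle (a b : ℚ) : Bool := decide (a ≤ b)

@[simp] theorem qle_iff {a b : ℚ} : qle a b = true ↔ a ≤ b := by simp [qle]

@[fun_prop] theorem fp_qle {f g : α → ℚ} (hf : Primrec f) (hg : Primrec g) :
    Primrec fun x => qle (f x) (g x) := (le hf hg).decide

@[fun_prop] theorem fp_getD {l : α → List β} {n : α → ℕ} (d : β) (hl : Primrec l)
    (hn : Primrec n) : Primrec fun x => (l x).getD (n x) d := (Primrec.list_getD d).comp hl hn

@[fun_prop] theorem fp_rangeMap {f : α → ℕ → β} {g : α → ℕ}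
    (hf : Primrec fun p : α × ℕ => f p.1 p.2) (hg : Primrec g) :
    Primrec fun x => (List.range (g x)).map (f x) :=
  Primrec.list_map (Primrec.list_range.comp hg) hf

/-- Primitive recursion. -/
def natRec (n : ℕ) (z : β) (s : ℕ → β → β) : β := Nat.rec z s n

omit [Primcodable β] in
@[simp] theorem natRec_zero (z : β) (s : ℕ → β → β) : natRec 0 z s = z := rfl

omit [Primcodable β] in
@[simp] theorem natRec_succ (n : ℕ) (z : β) (s : ℕ → β → β) :
    natRec (n + 1) z s = s n (natRec n z s) := rfl

@[fun_prop] theorem fp_natRec {n : α → ℕ} {z : α → β} {s : α → ℕ → β → β} (hn : Primrec n)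
    (hz : Primrec z) (hs : Primrec fun p : α × ℕ × β => s p.1 p.2.1 p.2.2) :
    Primrec fun x => natRec (n x) (z x) (s x) :=
  Primrec.nat_rec' hn hz (h := fun x p => s x p.1 p.2) hs

end Crest.Agent.RatPrim
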